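import Vale.Agent.P265.Final

open scoped Manifold ContDiff

namespace Vale.Agent.Results.P265.A_full

open Vale.Agent.P265

theorem result :
    ∃ (M : Type) (_ : TopologicalSpace M) (_ : T2Space M) (_ : CompactSpace M)
      (_ : ConnectedSpace M) (_ : ChartedSpace ((ℝ × ℝ × ℝ × ℝ) × ℝ × ℝ) M)
      (_ : IsManifold 𝓘(ℝ, (ℝ × ℝ × ℝ × ℝ) × ℝ × ℝ) ∞ M)
      (β : TwoForm ((ℝ × ℝ × ℝ × ℝ) × ℝ × ℝ) M) (H : ℝ → M → ℝ) (φ : ℝ → M → M),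
      β.IsSymplectic ∧ IsHamFlow β H φ ∧ NondegFix ((ℝ × ℝ × ℝ × ℝ) × ℝ × ℝ) (φ 1) ∧
        (Fix0 φ).encard < stableMorse ((ℝ × ℝ × ℝ × ℝ) × ℝ × ℝ) M :=
  main

end Vale.Agent.Results.P265.A_full
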